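import Mathlib

open Set Filter Topology Metric

namespace Vale.Agent.P079

variable {X : Type*} [NormedAddCommGroup X] [NormedSpace ℝ X]

/-- Weak compactness, in terms of ultrafilters. -/
def WCpt (C : Set X) : Prop :=
  ∀ U : Ultrafilter X, C ∈ U → ∃ z ∈ C, ∀ f : X →L[ℝ] ℝ, Tendsto f U (𝓝 (f z))

lemma mem_of_wlim {U : Filter X} [U.NeBot] {z : X}
    (hz : ∀ f : X →L[ℝ] ℝ, Tendsto f U (𝓝 (f z))) {D : Set X} (hD : Convex ℝ D)
    (hc : IsClosed D) (hDU : D ∈ U) : z ∈ D := by
  by_contra h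
  obtain ⟨f, u, hu, hf⟩ := geometric_hahn_banach_point_closed hD hc h
  have h1 : ∀ᶠ x in U, u ≤ f x := by
    filter_upwards [hDU] with x hx using (hf x hx).le
  have := ge_of_tendsto (hz f) h1
  linarith

lemma WCpt.mono {C D : Set X} (hC : WCpt C) (hDC : D ⊆ C) (hD : Convex ℝ D) (hc : IsClosed D) :
    WCpt D := by
  intro U hU
  obtain ⟨z, -, hz⟩ := hC U (mem_of_superset hU hDC)
  exact ⟨z, mem_of_wlim hz hD hc hU, hz⟩

lemma WCpt.seq {ι : Type*} {C : Set X} (hC : WCpt C) (U : Ultrafilter ι) (x : ι → X)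
    (hx : ∀ i, x i ∈ C) :
    ∃ z ∈ C, ∀ f : X →L[ℝ] ℝ, Tendsto (fun i => f (x i)) U (𝓝 (f z)) := by
  obtain ⟨z, hz, h⟩ := hC (U.map x) (by
    rw [Ultrafilter.mem_map]; exact Filter.univ_mem' hx)
  exact ⟨z, hz, fun f => h f⟩

/-- Minimal nonempty closed convex invariant set. -/
structure MinInv (T : X → X) (K : Set X) : Prop where
  ne : K.Nonempty
  cl : IsClosed K
  cv : Convex ℝ K
  inv : MapsTo T K K
  min : ∀ D ⊆ K, D.Nonempty → IsClosed D → Convex ℝ D → MapsTo T D D → D = K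

lemma exists_minInv {C : Set X} (hC : WCpt C) (hne : C.Nonempty) (hcl : IsClosed C)
    (hcv : Convex ℝ C) {T : X → X} (hT : MapsTo T C C) : ∃ K ⊆ C, MinInv T K := by
  let S : Set (Set X) := {D | D ⊆ C ∧ D.Nonempty ∧ IsClosed D ∧ Convex ℝ D ∧ MapsTo T D D}
  have hCS : C ∈ S := ⟨le_rfl, hne, hcl, hcv, hT⟩
  obtain ⟨K, -, hK⟩ := zorn_superset_nonempty S (fun c hcS hc hcne => by
    refine ⟨⋂₀ c, ⟨?_, ?_, ?_, ?_, ?_⟩, fun s hs => sInter_subset_of_mem hs⟩
    · obtain ⟨D, hD⟩ := hcne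
      exact (sInter_subset_of_mem hD).trans (hcS hD).1
    · have : Nonempty c := hcne.to_subtype
      have hdir : Directed (· ≥ ·) (fun D : c => (𝓟 (D : Set X))) := by
        intro a b
        rcases hc.total a.2 b.2 with h | h
        · exact ⟨a, le_rfl, principal_mono.2 h⟩
        · exact ⟨b, principal_mono.2 h, le_rfl⟩
      have : (⨅ D : c, (𝓟 (D : Set X))).NeBot :=
        iInf_neBot_of_directed' hdir (fun D => principal_neBot_iff.2 (hcS D.2).2.1)
      let U := Ultrafilter.of (⨅ D : c, (𝓟 (D : Set X)))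
      have hU : ∀ D ∈ c, D ∈ U := fun D hD =>
        Ultrafilter.of_le _ (mem_iInf_of_mem (⟨D, hD⟩ : c) (mem_principal_self _))
      obtain ⟨D0, hD0⟩ := hcne
      obtain ⟨z, -, hz⟩ := hC U (mem_of_superset (hU D0 hD0) (hcS hD0).1)
      exact ⟨z, fun D hD => mem_of_wlim hz (hcS hD).2.2.2.1 (hcS hD).2.2.1 (hU D hD)⟩
    · exact isClosed_sInter fun D hD => (hcS hD).2.2.1
    · exact convex_sInter fun D hD => (hcS hD).2.2.2.1
    · intro x hx D hD
      exact (hcS hD).2.2.2.2 (hx D hD)) C hCS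
  refine ⟨K, hK.prop.1, hK.prop.2.1, hK.prop.2.2.1, hK.prop.2.2.2.1, hK.prop.2.2.2.2, ?_⟩
  intro D hDK h1 h2 h3 h4
  exact subset_antisymm hDK (hK.le_of_le (show D ∈ S from ⟨hDK.trans hK.prop.1, h1, h2, h3, h4⟩) hDK)

/-- nonexpansive on a set -/
def NE (T : X → X) (K : Set X) : Prop := ∀ a ∈ K, ∀ b ∈ K, ‖T a - T b‖ ≤ ‖a - b‖

/-- Uniform Goebel-Karlovitz lemma. -/
lemma goebel_karlovitz {T : X → X} {K : Set X} (hK : MinInv T K) (hw : WCpt K) (hT : NE T K)
    {y0 : X} (hy0 : y0 ∈ K) {η : ℝ} (hη : 0 < η) :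
    ∃ ε > 0, ∀ p ∈ K, ‖p - T p‖ ≤ ε → diam K - η ≤ ‖p - y0‖ := by
  by_contra hcon
  push Not at hcon
  choose p hpK hp1 hp2 using fun n : ℕ => hcon (1 / ((n : ℝ) + 1)) (by positivity)
  set r := diam K - η with hr
  let U : Ultrafilter ℕ := hyperfilter ℕ
  have hU : (U : Filter ℕ) ≤ atTop := by
    rw [← Nat.cofinite_eq_atTop]; exact hyperfilter_le_cofinite
  have hlim : Tendsto (fun n : ℕ => 1 / ((n : ℝ) + 1)) U (𝓝 0) :=
    tendsto_one_div_add_atTop_nhds_zero_nat.mono_left hU
  let D : Set X := {y | y ∈ K ∧ ∀ s > r, ∀ᶠ n in (U : Filter ℕ), ‖y - p n‖ ≤ s}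
  have hD : D = K := by
    refine hK.min D (fun y hy => hy.1) ⟨y0, hy0, fun s hs => ?_⟩ ?_ ?_ ?_
    · refine Eventually.of_forall fun n => ?_
      rw [norm_sub_rev]; linarith [hp2 n]
    · refine isClosed_of_closure_subset fun y hy => ⟨hK.cl.closure_subset
        (closure_mono (fun y hy => hy.1) hy), fun s hs => ?_⟩
      obtain ⟨y', hy', hd⟩ := Metric.mem_closure_iff.1 hy ((s - r) / 2) (by linarith)
      filter_upwards [hy'.2 ((s + r) / 2) (by linarith)] with n hn
      rw [dist_eq_norm] at hd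
      have := norm_sub_le_norm_sub_add_norm_sub y y' (p n)
      linarith
    · intro a ha b hb s t hs ht hst
      refine ⟨hK.cv ha.1 hb.1 hs ht hst, fun u hu => ?_⟩
      filter_upwards [ha.2 u hu, hb.2 u hu] with n h1 h2
      have : s • a + t • b - p n = s • (a - p n) + t • (b - p n) := by
        rw [smul_sub, smul_sub]
        have : p n = s • p n + t • p n := by rw [← add_smul, hst, one_smul]
        conv_lhs => rw [this]
        abel
      rw [this]
      calc _ ≤ ‖s • (a - p n)‖ + ‖t • (b - p n)‖ := norm_add_le _ _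
        _ = s * ‖a - p n‖ + t * ‖b - p n‖ := by
          rw [norm_smul, norm_smul, Real.norm_of_nonneg hs, Real.norm_of_nonneg ht]
        _ ≤ s * u + t * u := by gcongr
        _ = u := by rw [← add_mul, hst, one_mul]
    · intro y hy
      refine ⟨hK.inv hy.1, fun s hs => ?_⟩
      filter_upwards [hy.2 ((s + r) / 2) (by linarith),
        hlim.eventually (ge_mem_nhds (show (0 : ℝ) < (s - r) / 2 by linarith))] with n h1 h2
      have h3 := norm_sub_le_norm_sub_add_norm_sub (T y) (T (p n)) (p n)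
      have h4 := hT y hy.1 (p n) (hpK n)
      have h5 := hp1 n
      rw [norm_sub_rev] at h5
      linarith
  obtain ⟨z, hzK, hz⟩ := hw (U.map p) (by
    rw [Ultrafilter.mem_map]; exact Filter.univ_mem' hpK)
  have hzr : ∀ y ∈ K, ‖y - z‖ ≤ r := by
    intro y hy
    refine le_of_forall_gt_imp_ge_of_dense fun s hs => ?_
    have hy' : y ∈ D := hD ▸ hy
    have : z ∈ closedBall y s := by
      refine mem_of_wlim hz (convex_closedBall y s) isClosed_closedBall ?_
      change closedBall y s ∈ Filter.map p U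
      rw [Filter.mem_map]
      filter_upwards [hy'.2 s hs] with n hn
      simpa [mem_closedBall, dist_eq_norm, norm_sub_rev] using hn
    simpa [mem_closedBall, dist_eq_norm, norm_sub_rev] using this
  let E : Set X := K ∩ ⋂ y ∈ K, closedBall y r
  have hE : E = K := by
    refine hK.min E inter_subset_left ⟨z, hzK, ?_⟩ ?_ ?_ ?_
    · simp only [mem_iInter, mem_closedBall, dist_eq_norm]
      intro y hy; rw [norm_sub_rev]; exact hzr y hy
    · exact hK.cl.inter (isClosed_biInter fun y _ => isClosed_closedBall)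
    · exact hK.cv.inter (convex_iInter₂ fun y _ => convex_closedBall y r)
    · intro w hw'
      have hw2 : ∀ y ∈ K, ‖w - y‖ ≤ r := by
        simpa only [mem_iInter, mem_closedBall, dist_eq_norm] using hw'.2
      have h1 : ∀ y ∈ K, T y ∈ closedBall (T w) r := by
        intro y hy
        rw [mem_closedBall, dist_eq_norm, norm_sub_rev]
        exact (hT w hw'.1 y hy).trans (hw2 y hy)
      have h2 : K ∩ closedBall (T w) r = K := by
        refine hK.min _ inter_subset_left ⟨T z, hK.inv hzK, h1 z hzK⟩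
          (hK.cl.inter isClosed_closedBall) (hK.cv.inter (convex_closedBall _ _)) ?_
        intro y hy
        exact ⟨hK.inv hy.1, h1 y hy.1⟩
      refine ⟨hK.inv hw'.1, ?_⟩
      simp only [mem_iInter]
      intro y hy
      have : y ∈ K ∩ closedBall (T w) r := h2.symm ▸ hy
      rw [mem_closedBall, dist_comm]; exact this.2
  have hr0 : 0 ≤ r := (norm_nonneg _).trans (hp2 0).le
  have : diam K ≤ r := by
    refine diam_le_of_forall_dist_le hr0 fun a ha b hb => ?_
    have ha' : a ∈ E := hE.symm ▸ ha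
    have := ha'.2
    simp only [mem_iInter] at this
    exact this b hb
  linarith

/-- The resolvent. -/
lemma exists_resolvent [CompleteSpace X] {T : X → X} {K : Set X} (hcl : IsClosed K)
    (hcv : Convex ℝ K) (hinv : MapsTo T K K) (hT : NE T K) {t : ℝ} (ht0 : 0 ≤ t) (ht1 : t < 1)
    {c : X} (hc : c ∈ K) : ∃ z ∈ K, z = (1 - t) • c + t • T z := by
  let f : X → X := fun z => (1 - t) • c + t • T z
  have hf : MapsTo f K K := fun z hz => hcv hc (hinv hz) (by linarith) ht0 (by ring)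
  have hcon : ContractingWith ⟨t, ht0⟩ (hf.restrict f K K) := by
    refine ⟨by exact_mod_cast ht1, LipschitzWith.of_dist_le_mul fun a b => ?_⟩
    simp only [Subtype.dist_eq, MapsTo.val_restrict_apply, dist_eq_norm, f]
    have : (1 - t) • c + t • T a - ((1 - t) • c + t • T b) = t • (T a - T b) := by
      rw [smul_sub]; abel
    rw [this, norm_smul, Real.norm_of_nonneg ht0]
    exact mul_le_mul_of_nonneg_left (hT a a.2 b b.2) ht0
  obtain ⟨z, hz, hfix, -⟩ := hcon.exists_fixedPoint' hcl.isComplete hf hc (edist_ne_top _ _)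
  exact ⟨z, hz, hfix.symm⟩

lemma exists_retr [CompleteSpace X] {T : X → X} {K : Set X} (hcl : IsClosed K)
    (hcv : Convex ℝ K) (hinv : MapsTo T K K) (hT : NE T K) (hb : Bornology.IsBounded K)
    {ε : ℝ} (hε : 0 < ε) :
    ∃ (R : X → X) (L : ℝ), MapsTo R K K ∧ NE R K ∧ (∀ c ∈ K, ‖R c - T (R c)‖ ≤ ε) ∧
      ∀ c ∈ K, ‖R c - c‖ ≤ L * ‖c - T c‖ := by
  have hd := diam_nonneg (s := K)
  set s : ℝ := min 1 (ε / (diam K + 1)) with hs
  have hs0 : 0 < s := lt_min one_pos (by positivity)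
  have hs1 : s ≤ 1 := min_le_left _ _
  have hs2 : s * diam K ≤ ε := by
    have h1 : s ≤ ε / (diam K + 1) := min_le_right _ _
    rw [le_div_iff₀ (by positivity)] at h1
    nlinarith
  have key : ∀ c, ∃ z, c ∈ K → z ∈ K ∧ z = s • c + (1 - s) • T z := by
    intro c
    by_cases hc : c ∈ K
    · obtain ⟨z, hz, h⟩ := exists_resolvent hcl hcv hinv hT (t := 1 - s) (by linarith)
        (by linarith) hc
      refine ⟨z, fun _ => ⟨hz, ?_⟩⟩
      simpa using h
    · exact ⟨c, fun h => absurd h hc⟩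
  choose R hR using key
  refine ⟨R, (1 - s) / s, fun c hc => (hR c hc).1, fun a ha b hb' => ?_, fun c hc => ?_,
    fun c hc => ?_⟩
  · have e : R a - R b = s • (a - b) + (1 - s) • (T (R a) - T (R b)) := by
      conv_lhs => rw [(hR a ha).2, (hR b hb').2]
      rw [smul_sub, smul_sub]; abel
    have h1 : ‖R a - R b‖ ≤ s * ‖a - b‖ + (1 - s) * ‖R a - R b‖ := by
      conv_lhs => rw [e]
      refine (norm_add_le _ _).trans ?_
      rw [norm_smul, norm_smul, Real.norm_of_nonneg hs0.le, Real.norm_of_nonneg (by linarith)]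
      have := hT _ (hR a ha).1 _ (hR b hb').1
      gcongr
    nlinarith
  · have e : R c - T (R c) = s • (c - T (R c)) := by
      conv_lhs => arg 1; rw [(hR c hc).2]
      rw [smul_sub, sub_smul, one_smul]; abel
    rw [e, norm_smul, Real.norm_of_nonneg hs0.le]
    have : ‖c - T (R c)‖ ≤ diam K := by
      rw [← dist_eq_norm]; exact dist_le_diam_of_mem hb hc (hinv (hR c hc).1)
    nlinarith
  · have e : R c - c = (1 - s) • (T (R c) - T c) - (1 - s) • (c - T c) := by
      conv_lhs => arg 1; rw [(hR c hc).2]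
      rw [smul_sub, smul_sub, sub_smul 1 s c, one_smul]; abel
    have h1 : ‖R c - c‖ ≤ (1 - s) * ‖R c - c‖ + (1 - s) * ‖c - T c‖ := by
      conv_lhs => rw [e]
      refine (norm_sub_le _ _).trans ?_
      rw [norm_smul, norm_smul, Real.norm_of_nonneg (by linarith)]
      have := hT _ (hR c hc).1 _ hc
      gcongr
    rw [div_mul_eq_mul_div, le_div_iff₀ hs0]
    nlinarith

end Vale.Agent.P079
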