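import Vale.Agent.P079.Game

open Set Filter Topology Metric

namespace Vale.Agent.P079

variable {E : Type*} [NormedAddCommGroup E] [NormedSpace ℝ E]

/-- evaluation into the product space -/
def ev (x : E) : (E →L[ℝ] ℝ) → ℝ := fun f => f x

lemma WCpt.isCompact {C : Set E} (hC : WCpt C) : IsCompact (ev '' C) := by
  classical
  rw [isCompact_iff_ultrafilter_le_nhds]
  intro U hU
  rw [le_principal_iff] at hU
  let σ : ((E →L[ℝ] ℝ) → ℝ) → E := fun p => if h : p ∈ ev '' C then h.choose else 0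
  have hσ : ∀ p ∈ ev '' C, σ p ∈ C ∧ ev (σ p) = p := by
    intro p hp
    simp only [σ, dif_pos hp]
    exact hp.choose_spec
  obtain ⟨z, hz, h⟩ := hC (U.map σ) (by
    rw [Ultrafilter.mem_map]
    exact mem_of_superset hU fun p hp => (hσ p hp).1)
  refine ⟨ev z, mem_image_of_mem _ hz, ?_⟩
  change Tendsto id (U : Filter _) (𝓝 (ev z))
  rw [tendsto_pi_nhds]
  intro f
  have h1 : Tendsto (fun p => f (σ p)) U (𝓝 (f z)) := h f
  refine h1.congr' ?_
  filter_upwards [hU] with p hp
  exact congrFun (hσ p hp).2 f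

/-- slices of small diameter -/
def HasSlice (A : Set E) (κ : ℝ) : Prop :=
  ∃ (f : E →L[ℝ] ℝ) (r : ℝ), (∃ a ∈ A, r < f a) ∧
    ∀ a ∈ A, ∀ a' ∈ A, r < f a → r < f a' → ‖a - a'‖ ≤ κ

lemma hasSlice_of_countable {C A : Set E} (hC : WCpt C) (hcl : IsClosed C) (hcv : Convex ℝ C)
    (hb : Bornology.IsBounded C) (hAC : A ⊆ C) (hA : A.Nonempty) (hcount : A.Countable)
    {κ : ℝ} (hκ : 0 < κ) : HasSlice A κ := by
  obtain ⟨B, hB⟩ := hb.exists_norm_le
  set C0 := closure (convexHull ℝ A) with hC0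
  have hC0C : C0 ⊆ C := closure_minimal (convexHull_min hAC hcv) hcl
  have hC0cv : Convex ℝ C0 := (convex_convexHull ℝ A).closure
  have hC0w : WCpt C0 := hC.mono hC0C hC0cv isClosed_closure
  have hAC0 : A ⊆ C0 := (subset_convexHull ℝ A).trans subset_closure
  have hhalf : ∀ (f : E →L[ℝ] ℝ) (r : ℝ), (∀ a ∈ A, f a ≤ r) → ∀ c ∈ C0, f c ≤ r := by
    intro f r h
    refine closure_minimal (t := {c | f c ≤ r}) (convexHull_min h ?_)
      (isClosed_le f.continuous continuous_const)
    exact convex_halfSpace_le (f : E →ₗ[ℝ] ℝ).isLinear r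
  have hsep : TopologicalSpace.IsSeparable C0 := by
    refine TopologicalSpace.IsSeparable.closure ?_
    refine (hcount.isSeparable.span (R := ℝ)).mono ?_
    exact convexHull_min Submodule.subset_span (Submodule.span ℝ A).convex
  obtain ⟨S, hS, hCS⟩ := hsep
  let Gen : Set ((E →L[ℝ] ℝ) → ℝ) → Prop := fun D =>
    ∀ (f : E →L[ℝ] ℝ) (r : ℝ), (∀ d ∈ D, d f ≤ r) → ∀ a ∈ A, f a ≤ r
  let 𝒟 : Set (Set ((E →L[ℝ] ℝ) → ℝ)) := {D | D ⊆ ev '' C0 ∧ IsClosed D ∧ Gen D}
  have hK := hC0w.isCompact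
  obtain ⟨D, -, hD⟩ := zorn_superset_nonempty 𝒟 (fun c hc hch hne => by
    refine ⟨⋂₀ c, ⟨?_, isClosed_sInter fun D hD => (hc hD).2.1, ?_⟩,
      fun s hs => sInter_subset_of_mem hs⟩
    · obtain ⟨D, hD⟩ := hne
      exact (sInter_subset_of_mem hD).trans (hc hD).1
    · intro f r h a ha
      by_contra hcon
      push Not at hcon
      obtain ⟨r', hr1, hr2⟩ := exists_between hcon
      have : Nonempty c := hne.to_subtype
      have hcl' : ∀ D : c, IsClosed ((D : Set _) ∩ {p : (E →L[ℝ] ℝ) → ℝ | r' ≤ p f}) := fun D =>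
        (hc D.2).2.1.inter (isClosed_le continuous_const (continuous_apply f))
      obtain ⟨p, hp⟩ := IsCompact.nonempty_iInter_of_directed_nonempty_isCompact_isClosed
        (fun D : c => (D : Set _) ∩ {p : (E →L[ℝ] ℝ) → ℝ | r' ≤ p f}) (by
          intro D1 D2
          rcases hch.total D1.2 D2.2 with h | h
          · exact ⟨D1, le_rfl, inter_subset_inter_left _ h⟩
          · exact ⟨D2, inter_subset_inter_left _ h, le_rfl⟩) (by
          intro D
          by_contra hemp
          have := (hc D.2).2.2 f r' (fun d hd => by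
            by_contra h2
            exact hemp ⟨d, hd, (not_le.1 h2).le⟩) a ha
          linarith)
        (fun D => hK.of_isClosed_subset (hcl' D) (inter_subset_left.trans (hc D.2).1)) hcl'
      rw [mem_iInter] at hp
      have h1 := h p (fun D hD => (hp ⟨D, hD⟩).1)
      have h2 : r' ≤ p f := (hp this.some).2
      linarith) (ev '' C0) ⟨le_rfl, hK.isClosed,
        fun f r h a ha => h (ev a) (mem_image_of_mem _ (hAC0 ha))⟩
  obtain ⟨hD1, hD2, hD3⟩ := hD.prop
  obtain ⟨a0, ha0⟩ := hA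
  have hDne : D.Nonempty := by
    by_contra h
    have := hD3 0 (-1) (fun d hd => absurd ⟨d, hd⟩ h) a0 ha0
    simp at this
    linarith
  have hDc : IsCompact D := hK.of_isClosed_subset hD2 hD1
  have : CompactSpace D := isCompact_iff_compactSpace.1 hDc
  have : Nonempty D := hDne.to_subtype
  have : Countable S := hS.to_subtype
  let F : S → Set ((E →L[ℝ] ℝ) → ℝ) := fun s => ev '' (C0 ∩ closedBall (s : E) (κ / 4))
  have hF : ∀ s, IsClosed (F s) := fun s =>
    (hC0w.mono inter_subset_left (hC0cv.inter (convex_closedBall _ _))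
      (isClosed_closure.inter isClosed_closedBall)).isCompact.isClosed
  obtain ⟨s, p0, hp0⟩ := nonempty_interior_of_iUnion_of_closed
    (f := fun s : S => (Subtype.val : D → _) ⁻¹' F s)
    (fun s => (hF s).preimage continuous_subtype_val) (by
      refine eq_univ_of_forall fun d => ?_
      obtain ⟨c, hc, hcd⟩ := hD1 d.2
      obtain ⟨s, hs, hd⟩ := Metric.mem_closure_iff.1 (hCS hc) (κ / 4) (by positivity)
      exact mem_iUnion.2 ⟨⟨s, hs⟩, c, ⟨hc, hd.le⟩, hcd⟩)
  obtain ⟨W', hW'F, hW'o, hp0W⟩ := mem_interior.1 hp0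
  obtain ⟨W, hWo, rfl⟩ := isOpen_induced_iff.1 hW'o
  have hng : ¬ Gen (D \ W) := by
    intro hg
    have := hD.le_of_le (show D \ W ∈ 𝒟 from ⟨diff_subset.trans hD1, hD2.sdiff hWo, hg⟩)
      diff_subset
    exact (this p0.2).2 hp0W
  simp only [Gen] at hng
  push Not at hng
  obtain ⟨f, r, hf, a1, ha1, hr⟩ := hng
  have hbdd : BddAbove (f '' A) := by
    refine ⟨‖f‖ * B, ?_⟩
    rintro _ ⟨a, ha, rfl⟩
    exact (le_abs_self _).trans ((f.le_opNorm a).trans
      (mul_le_mul_of_nonneg_left (hB a (hAC ha)) (norm_nonneg _)))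
  set m := sSup (f '' A) with hm
  have hfm : ∀ a ∈ A, f a ≤ m := fun a ha => le_csSup hbdd (mem_image_of_mem _ ha)
  have hrm : r < m := hr.trans_le (hfm a1 ha1)
  set B' := B + ‖(s : E)‖ + 1 with hB'
  have hB0 : 0 ≤ B := (norm_nonneg _).trans (hB a0 (hAC ha0))
  have hB'p : 0 < B' := by positivity
  set μ := B' / (m - r) with hμ
  have hμp : 0 < μ := div_pos hB'p (by linarith)
  have hμe : μ * (m - r) = B' := by rw [hμ]; field_simp [(sub_pos.2 hrm).ne']
  have key : ∀ a ∈ A, m - κ / 4 / μ < f a → ‖a - s‖ ≤ κ / 2 := by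
    intro a ha hlt
    obtain ⟨g, hg, hg2⟩ := exists_dual_vector'' ℝ (a - s)
    simp only [RCLike.ofReal_real_eq_id, id_eq] at hg2
    have := hD3 (g + μ • f) (g s + κ / 4 + μ * m) (fun d hd => by
      by_cases hdW : d ∈ W
      · obtain ⟨c, ⟨hc, hc2⟩, rfl⟩ := hW'F (show (⟨d, hd⟩ : D) ∈ Subtype.val ⁻¹' W from hdW)
        have h1 := le_norm_of_dual hg (c - s)
        rw [map_sub] at h1
        rw [mem_closedBall, dist_eq_norm] at hc2
        have h2 := hhalf f m hfm c hc
        simp only [ev, ContinuousLinearMap.add_apply, ContinuousLinearMap.smul_apply, smul_eq_mul]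
        nlinarith
      · have h0 := hf d ⟨hd, hdW⟩
        obtain ⟨c, hc, rfl⟩ := hD1 hd
        have h1 := le_norm_of_dual hg (c - s)
        rw [map_sub] at h1
        have h2 := norm_sub_le c (s : E)
        have h3 := hB c (hC0C hc)
        simp only [ev, ContinuousLinearMap.add_apply, ContinuousLinearMap.smul_apply,
          smul_eq_mul] at h0 ⊢
        nlinarith) a ha
    simp only [ContinuousLinearMap.add_apply, ContinuousLinearMap.smul_apply, smul_eq_mul] at this
    rw [← hg2, map_sub]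
    have h4 : μ * (m - f a) ≤ κ / 4 := by
      have : m - f a ≤ κ / 4 / μ := by linarith
      rw [le_div_iff₀ hμp] at this
      linarith
    nlinarith
  refine ⟨f, m - κ / 4 / μ, ?_, fun a ha a' ha' h1 h2 => ?_⟩
  · obtain ⟨_, ⟨a, ha, rfl⟩, h⟩ := exists_lt_of_lt_csSup (⟨f a0, mem_image_of_mem _ ha0⟩ :
      (f '' A).Nonempty) (show m - κ / 4 / μ < m by
        have : 0 < κ / 4 / μ := by positivity
        linarith)
    exact ⟨a, ha, h⟩
  · have := norm_sub_le_norm_sub_add_norm_sub a s a'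
    have h3 := key a ha h1
    have h4 := key a' ha' h2
    rw [norm_sub_rev] at h4
    linarith

theorem hasSlice {C A : Set E} (hC : WCpt C) (hcl : IsClosed C) (hcv : Convex ℝ C)
    (hb : Bornology.IsBounded C) (hAC : A ⊆ C) (hA : A.Nonempty) {κ : ℝ} (hκ : 0 < κ) :
    HasSlice A κ := by
  by_contra hcon
  have h1 : ∀ a ∈ A, a ∈ closure (convexHull ℝ (A \ ball a (κ / 2))) := by
    intro a ha
    by_contra h
    obtain ⟨f, u, hu, hf⟩ := geometric_hahn_banach_closed_point
      (convex_convexHull ℝ _).closure isClosed_closure h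
    refine hcon ⟨f, u, ⟨a, ha, hf⟩, fun b hb b' hb' h1 h2 => ?_⟩
    have k : ∀ b ∈ A, u < f b → ‖b - a‖ < κ / 2 := by
      intro b hb h1
      by_contra h3
      have := hu b (subset_closure (subset_convexHull ℝ _ ⟨hb, by
        rwa [mem_ball, dist_eq_norm]⟩))
      linarith
    have := norm_sub_le_norm_sub_add_norm_sub b a b'
    have h3 := k b hb h1
    have h4 := k b' hb' h2
    rw [norm_sub_rev] at h4
    linarith
  have h2 : ∀ a, ∃ N : Set E, N.Countable ∧ (a ∈ A → N ⊆ A \ ball a (κ / 2) ∧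
      a ∈ closure (convexHull ℝ N)) := by
    intro a
    by_cases ha : a ∈ A
    · obtain ⟨y, hy, hlim⟩ := mem_closure_iff_seq_limit.1 (h1 a ha)
      have : ∀ n, ∃ t : Finset E, (t : Set E) ⊆ A \ ball a (κ / 2) ∧ y n ∈ convexHull ℝ (t : Set E) := by
        intro n
        have := hy n
        rw [convexHull_eq_union_convexHull_finite_subsets] at this
        simpa using this
      choose t ht ht2 using this
      refine ⟨⋃ n, (t n : Set E), countable_iUnion fun n => (t n).countable_toSet,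
        fun _ => ⟨iUnion_subset ht, ?_⟩⟩
      exact mem_closure_iff_seq_limit.2
        ⟨y, fun n => convexHull_mono (subset_iUnion (fun n => (t n : Set E)) n) (ht2 n), hlim⟩
    · exact ⟨∅, countable_empty, fun h => absurd h ha⟩
  choose N hN hN2 using h2
  obtain ⟨a0, ha0⟩ := hA
  let S : ℕ → Set E := fun n => Nat.rec {a0} (fun _ s => ⋃ a ∈ s, N a) n
  have hS : ∀ n, (S n).Countable ∧ S n ⊆ A := by
    intro n
    induction n with
    | zero => exact ⟨countable_singleton _, singleton_subset_iff.2 ha0⟩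
    | succ n ih =>
      exact ⟨ih.1.biUnion fun a _ => hN a,
        iUnion₂_subset fun a ha => (hN2 a (ih.2 ha)).1.trans diff_subset⟩
  have hA0 : (⋃ n, S n) ⊆ A := iUnion_subset fun n => (hS n).2
  obtain ⟨f, r, ⟨a, ha, har⟩, hsl⟩ := hasSlice_of_countable hC hcl hcv hb (hA0.trans hAC)
    ⟨a0, mem_iUnion.2 ⟨0, rfl⟩⟩ (countable_iUnion fun n => (hS n).1)
    (show 0 < κ / 4 by positivity)
  obtain ⟨n, hn⟩ := mem_iUnion.1 ha
  have hNa := hN2 a (hA0 ha)
  have : ∃ a' ∈ N a, r < f a' := by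
    by_contra h
    push Not at h
    have : closure (convexHull ℝ (N a)) ⊆ {c | f c ≤ r} :=
      closure_minimal (convexHull_min h (convex_halfSpace_le (f : E →ₗ[ℝ] ℝ).isLinear r))
        (isClosed_le f.continuous continuous_const)
    have := this hNa.2
    simp only [mem_setOf_eq] at this
    linarith
  obtain ⟨a', ha', har'⟩ := this
  have h3 := hsl a' (mem_iUnion.2 ⟨n + 1, mem_iUnion₂.2 ⟨a, hn, ha'⟩⟩) a ha har' har
  have h4 := (hNa.1 ha').2
  rw [mem_ball, dist_eq_norm] at h4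
  linarith

/-- weak star limits of bounded families of functionals -/
lemma exists_wstar_lim {ι : Type*} (U : Ultrafilter ι) (j : ι → (E →L[ℝ] ℝ)) {B : ℝ}
    (hj : ∀ᶠ i in (U : Filter ι), ‖j i‖ ≤ B) :
    ∃ ξ : E →L[ℝ] ℝ, ‖ξ‖ ≤ B ∧ ∀ x, Tendsto (fun i => j i x) U (𝓝 (ξ x)) := by
  obtain ⟨ξ, hξ, h⟩ := (WeakDual.isCompact_closedBall (𝕜 := ℝ) (E := E) 0 B).ultrafilter_le_nhds
    (U.map fun i => StrongDual.toWeakDual (j i)) (by
      rw [le_principal_iff, Ultrafilter.mem_coe, Ultrafilter.mem_map]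
      filter_upwards [hj] with i hi
      simpa using hi)
  refine ⟨WeakDual.toStrongDual ξ, by simpa using hξ, fun x => ?_⟩
  exact ((WeakDual.eval_continuous x).tendsto ξ).comp h

lemma wcpt_of_refl (hX : Function.Surjective (NormedSpace.inclusionInDoubleDual ℝ E))
    {C : Set E} (hcl : IsClosed C) (hcv : Convex ℝ C) (hb : Bornology.IsBounded C) : WCpt C := by
  intro U hU
  obtain ⟨B, hB⟩ := hb.exists_norm_le
  obtain ⟨ξ, -, h⟩ := exists_wstar_lim U (fun x => NormedSpace.inclusionInDoubleDual ℝ E x)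
    (B := B) (by
      filter_upwards [hU] with x hx
      exact (NormedSpace.double_dual_bound ℝ E x).trans (hB x hx))
  obtain ⟨z, rfl⟩ := hX ξ
  exact ⟨z, mem_of_wlim h hcv hcl hU, h⟩

lemma wcpt_dual_ball (hX : Function.Surjective (NormedSpace.inclusionInDoubleDual ℝ E)) :
    WCpt (closedBall (0 : E →L[ℝ] ℝ) 1) := by
  intro U hU
  obtain ⟨ξ, hξ, h⟩ := exists_wstar_lim U id (B := 1) (by
    filter_upwards [hU] with x hx
    simpa using hx)
  refine ⟨ξ, by simpa using hξ, fun Φ => ?_⟩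
  obtain ⟨z, rfl⟩ := hX Φ
  exact h z

end Vale.Agent.P079
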