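import Vale.Agent.P079.Main

open Set Filter Topology Metric

namespace Vale.Agent.P079

variable {X : Type*} [NormedAddCommGroup X] [NormedSpace ℝ X] {T : X → X} {K : Set X}

/-- Approximate fixed points are diametral, uniformly over a compact set and by one functional. -/
lemma far_functional (hK : MinInv T K) (hw : WCpt K) (hT : NE T K) (hb : Bornology.IsBounded K)
    {U : Filter ℕ} {x : ℕ → X} (hx : ∀ n, x n ∈ K)
    (hxT : Tendsto (fun n => ‖x n - T (x n)‖) U (𝓝 0)) {W : Set X} (hW : IsCompact W)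
    (hWK : W ⊆ K) {η : ℝ} (hη : 0 < η) :
    ∀ᶠ n in U, ∃ g : X →L[ℝ] ℝ, ‖g‖ ≤ 1 ∧ ∀ w ∈ W, diam K - η ≤ g (x n - w) := by
  have hdist : ∀ a ∈ K, ∀ b ∈ K, ‖a - b‖ ≤ diam K := fun a ha b hb' => by
    rw [← dist_eq_norm]; exact dist_le_diam_of_mem hb ha hb'
  obtain ⟨t, htW, ht, hcov⟩ := finite_cover_balls_of_compact hW (show 0 < η / 2 by positivity)
  obtain ⟨w0, hw0, m, hm, h⟩ := exists_center hK.ne hK.cv hdist ht (htW.trans hWK)
  obtain ⟨ε, hε, hgk⟩ := goebel_karlovitz hK hw hT hw0 (η := η / 2 / m) (by positivity)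
  filter_upwards [hxT.eventually (ge_mem_nhds hε)] with n hn
  obtain ⟨g, hg, hg2⟩ := exists_dual_vector'' ℝ (x n - w0)
  simp only [RCLike.ofReal_real_eq_id, id_eq] at hg2
  refine ⟨g, hg, fun w hw' => ?_⟩
  obtain ⟨w', hw1, hw2⟩ := mem_iUnion₂.1 (hcov hw')
  rw [mem_ball, dist_eq_norm] at hw2
  have e1 := h g hg (x n) (hx n) w' hw1
  have e2 := hgk (x n) (hx n) hn
  have e3 := le_norm_of_dual hg (w - w')
  have e4 : m * (diam K - g (x n - w0)) ≤ m * (η / 2 / m) :=
    mul_le_mul_of_nonneg_left (by linarith) hm.le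
  rw [mul_div_cancel₀ _ hm.ne'] at e4
  simp only [map_sub] at *
  linarith

/-- The gauge diameter can be raised by the full diameter using an almost constant functional. -/
lemma gauge_step [CompleteSpace X] (hK : MinInv T K) (hw : WCpt K) (hT : NE T K)
    (hb : Bornology.IsBounded K) {G : X →L[ℝ] ℝ} {r : ℝ} {F : Set X} (hF : F.Finite)
    (hFK : F ⊆ K) {ε : ℝ} (hε : 0 < ε)
    (h : ∀ g : X →L[ℝ] ℝ, ‖g‖ ≤ 1 → (∀ p ∈ F, ∀ q ∈ F, g (p - q) ≤ ε) →
      ∀ a ∈ K, ∀ b ∈ K, Le T K (G - g) a b (r + diam K)) :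
    ∀ a ∈ K, ∀ b ∈ K, Le T K G a b r := by
  obtain ⟨x, y0, hy0, hx, hxT, hxw⟩ := exists_afps hK hw hT hb
  set d := diam K with hdd
  have hdist : ∀ a ∈ K, ∀ b ∈ K, ‖a - b‖ ≤ d := fun a ha b hb' => by
    rw [← dist_eq_norm]; exact dist_le_diam_of_mem hb ha hb'
  refine le_all hK hT hb hy0 fun a ha Θ c hΘ => ?_
  refine le_of_forall_pos_le_add fun η' hη' => ?_
  have hc := hΘ.pos
  set η := η' / (1 + c * ‖G‖) with hηe
  have hη : 0 < η := by positivity
  obtain ⟨N, hN⟩ := hΘ.near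
  let H : Set X → Set (X × ℝ) := fun S =>
    convexHull ℝ (insert (a, (0 : ℝ)) ((fun u => (u, (1 : ℝ))) '' S))
  have hHK : ∀ S ⊆ K, ∀ p ∈ H S, p.1 ∈ K := by
    intro S hS
    refine convexHull_min (t := Prod.fst ⁻¹' K) ?_
      (hK.cv.linear_preimage (LinearMap.fst ℝ X ℝ))
    rintro p (rfl | ⟨u, hu, rfl⟩)
    · exact ha
    · exact hS hu
  have hcont : ContinuousOn Θ K := by
    refine LipschitzOnWith.continuousOn (K := ⟨c, hc.le⟩)
      (LipschitzOnWith.of_dist_le_mul fun p hp q hq => ?_)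
    rw [dist_eq_norm, dist_eq_norm]
    exact hΘ.lip p hp q hq
  obtain ⟨S, ⟨hSK, e, he, hS⟩, w, hwS, hwy⟩ := mazur_game hw hx hxw
    (fun S => S ⊆ K ∧ ∃ e < η, ∀ p ∈ H S, G (Θ a - Θ p.1) ≤ c * (p.2 * r) + e)
    ⟨empty_subset _, 0, hη, by simp [H]⟩ (fun S hS ⟨hSK, e, he, hP⟩ => by
      set δ := min ε ((η - e) / 3) with hδ
      have hδ0 : 0 < δ := lt_min hε (by linarith)
      have hδ1 : δ ≤ ε := min_le_left _ _
      have hδ2 : δ ≤ (η - e) / 3 := min_le_right _ _
      have hHc : IsCompact (H S) := ((hS.image _).insert _).isCompact_convexHull ℝ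
      have hW : IsCompact (Θ '' (Prod.fst '' H S) ∪ F) :=
        ((hHc.image continuous_fst).image_of_continuousOn (hcont.mono (by
          rintro _ ⟨p, hp, rfl⟩
          exact hHK S hSK p hp))).union hF.isCompact
      have hWK : Θ '' (Prod.fst '' H S) ∪ F ⊆ K := by
        rintro _ (⟨_, ⟨p, hp, rfl⟩, rfl⟩ | hq)
        · exact hΘ.maps (hHK S hSK p hp)
        · exact hFK hq
      have hNe : Tendsto (fun n => N * ‖x n - T (x n)‖) (hyperfilter ℕ) (𝓝 0) := by
        simpa using hxT.const_mul N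
      filter_upwards [far_functional hK hw hT hb hx hxT hW hWK hδ0,
        hNe.eventually (ge_mem_nhds hδ0)] with n ⟨g, hg, hgW⟩ hn
      refine ⟨insert_subset (hx n) hSK, e + 2 * δ, by linarith, fun p hp => ?_⟩
      have hD := h g hg (fun p hp q hq => by
        have e1 := hgW p (Or.inr hp)
        have e2 := (le_norm_of_dual hg (x n - q)).trans (hdist _ (hx n) _ (hFK hq))
        simp only [map_sub] at *
        linarith) a ha (x n) (hx n)
      simp only [H, image_insert_eq] at hp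
      rw [insert_comm, convexHull_insert (insert_nonempty _ _), mem_convexJoin] at hp
      obtain ⟨_, rfl, q, hq, l, m, hl, hm, hlm, rfl⟩ := hp
      have hqK : q.1 ∈ K := hHK S hSK q hq
      have hp' : m • q + l • (a, (0 : ℝ)) ∈ H S :=
        convex_convexHull ℝ _ hq (subset_convexHull ℝ _ (mem_insert _ _)) hm hl (by linarith)
      have e1 := hP _ hp'
      have e2 := hD.scal hK.cv hb hqK hm hl (by linarith) Θ c hΘ
      have e3 := hgW _ (Or.inl (mem_image_of_mem _ (mem_image_of_mem _ hp')))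
      have hz : m • q.1 + l • x n ∈ K := hK.cv hqK (hx n) hm hl (by linarith)
      have e4 := hN _ hz _ (hx n)
      have e5 : ‖m • q.1 + l • x n - x n‖ ≤ m * d := by
        have : m • q.1 + l • x n - x n = m • (q.1 - x n) := by
          rw [smul_sub, show l = 1 - m by linarith, sub_smul, one_smul]; abel
        rw [this, norm_smul, Real.norm_of_nonneg hm]
        exact mul_le_mul_of_nonneg_left (hdist _ hqK _ (hx n)) hm
      have e6 := le_norm_of_dual hg (x n - Θ (m • q.1 + l • x n))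
      rw [norm_sub_rev] at e6
      have e7 := mul_le_mul_of_nonneg_left e5 hc.le
      have e8 : l = 1 - m := by linarith
      simp only [Prod.fst_add, Prod.smul_fst, Prod.snd_add, Prod.smul_snd, smul_eq_mul, map_sub,
        ContinuousLinearMap.sub_apply, add_comm (l • x n)] at *
      rw [← hdd] at e4
      subst e8
      nlinarith) hη
  have hw1 : (w, (1 : ℝ)) ∈ H S := by
    refine convexHull_min (t := {w | (w, (1 : ℝ)) ∈ H S}) (fun u hu => ?_) ?_ hwS
    · exact subset_convexHull ℝ _ (mem_insert_of_mem _ (mem_image_of_mem _ hu))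
    · intro u hu v hv s t hs ht hst
      have := convex_convexHull ℝ _ hu hv hs ht hst
      simpa [hst] using this
  have e1 := hS _ hw1
  have e2 := le_norm (T := T) G (hHK S hSK _ hw1) hy0 Θ c hΘ
  have e3 : c * (‖G‖ * ‖w - y0‖) ≤ c * (‖G‖ * η) := by gcongr
  have e4 : η * (1 + c * ‖G‖) = η' := by rw [hηe]; field_simp
  simp only [map_sub] at *
  nlinarith

/-- In a reflexive space a minimal invariant set is a point. -/
theorem diam_nonpos [CompleteSpace X]
    (hX : Function.Surjective (NormedSpace.inclusionInDoubleDual ℝ X))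
    (hK : MinInv T K) (hT : NE T K) (hb : Bornology.IsBounded K) : diam K ≤ 0 := by
  have hw := wcpt_of_refl hX hK.cl hK.cv hb
  by_contra hd
  push Not at hd
  set d := diam K with hdd
  have hdist : ∀ a ∈ K, ∀ b ∈ K, ‖a - b‖ ≤ d := fun a ha b hb' => by
    rw [← dist_eq_norm]; exact dist_le_diam_of_mem hb ha hb'
  refine no_game (wcpt_of_refl hX isClosed_closedBall (convex_closedBall (0 : X) d)
    isBounded_closedBall) 0 (B := 1) (show -(d / 2) < -(d / 4) by linarith)
    (fun S Φ => (∀ v ∈ S, ∃ p ∈ K, ∃ q ∈ K, ∃ c > (0 : ℝ), p - q = c • v) ∧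
      ∃ (G : X →L[ℝ] ℝ) (r : ℝ), (¬ ∀ a ∈ K, ∀ b ∈ K, Le T K G a b r) ∧
        (∀ v, ‖v‖ ≤ d → G v ≤ r + d / 2) ∧
        ∀ v, ‖v‖ ≤ d → r < G v → ∀ φ ∈ Φ, φ v ≤ -(d / 2)) ?_ ?_
  · refine ⟨by simp, 0, -(d / 2), fun h => ?_, by simp, by simp⟩
    obtain ⟨a, ha⟩ := hK.ne
    have := h a ha a ha id 1 good_id
    simp at this
    linarith
  · rintro S Φ hS - ⟨hSK, G, r, h1, h2, h3⟩
    have h4 := h1
    simp only [Le] at h4
    push Not at h4
    obtain ⟨a, ha, b, hb', Θ, c, hΘ, hlt⟩ := h4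
    have hc := hΘ.pos
    set v := c⁻¹ • (Θ a - Θ b) with hv
    have hv1 : ‖v‖ ≤ d := by
      rw [hv, norm_smul, Real.norm_of_nonneg (inv_nonneg.2 hc.le), inv_mul_le_iff₀ hc]
      exact (hΘ.lip a ha b hb').trans (mul_le_mul_of_nonneg_left (hdist a ha b hb') hc.le)
    have hv2 : r < G v := by
      rw [hv, map_smul, smul_eq_mul, lt_inv_mul_iff₀ hc]
      exact hlt
    have hF : ∃ F : Set X, F.Finite ∧ F ⊆ K ∧ ∃ ε > (0 : ℝ), ∀ g : X →L[ℝ] ℝ,
        (∀ p ∈ F, ∀ q ∈ F, g (p - q) ≤ ε) → ∀ u ∈ S, -(d / 4) ≤ g u := by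
      clear h3
      induction S, hS using Set.Finite.induction_on with
      | empty => exact ⟨∅, finite_empty, empty_subset _, 1, one_pos, by simp⟩
      | @insert u S _ _ ih =>
        obtain ⟨F, hF, hFK, ε, hε, h⟩ := ih fun v hv => hSK v (mem_insert_of_mem _ hv)
        obtain ⟨p, hp, q, hq, s, hs, hpq⟩ := hSK u (mem_insert _ _)
        refine ⟨insert p (insert q F), (hF.insert _).insert _,
          insert_subset hp (insert_subset hq hFK), min ε (s * (d / 4)),
          lt_min hε (by positivity), fun g hg u' hu' => ?_⟩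
        rcases hu' with rfl | hu'
        · have e1 := (hg q (by simp) p (by simp)).trans (min_le_right _ _)
          have e2 : g (q - p) = -(s * g u') := by
            rw [← neg_sub, map_neg, hpq, map_smul, smul_eq_mul]
          rw [e2] at e1
          nlinarith
        · exact h g (fun p' hp' q' hq' => (hg p' (by simp [hp']) q' (by simp [hq'])).trans
            (min_le_left _ _)) u' hu'
    obtain ⟨F, hF, hFK, ε, hε, hFS⟩ := hF
    have h5 := mt (gauge_step hK hw hT hb (G := G) (r := r) hF hFK hε) h1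
    push Not at h5
    obtain ⟨g, hg, hgF, h6⟩ := h5
    refine ⟨g, v, hg, by simpa using hv1, fun u hu => by simpa using hFS g hgF u hu,
      fun φ hφ => by simpa using h3 v hv1 hv2 φ hφ, ?_, G - g, r + d, ?_, fun u hu => ?_,
      fun u hu hlt φ hφ => ?_⟩
    · rintro u (rfl | hu)
      · exact ⟨Θ a, hΘ.maps ha, Θ b, hΘ.maps hb', c, hc, by
          rw [hv, smul_smul, mul_inv_cancel₀ hc.ne', one_smul]⟩
      · exact hSK u hu
    · push Not
      exact h6
    · have e1 := le_norm_of_dual hg (-u)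
      rw [map_neg, norm_neg] at e1
      have := h2 u hu
      rw [ContinuousLinearMap.sub_apply]
      linarith
    · have e1 := le_norm_of_dual hg (-u)
      rw [map_neg, norm_neg] at e1
      have := h2 u hu
      rw [ContinuousLinearMap.sub_apply] at hlt
      rcases hφ with rfl | hφ
      · linarith
      · exact h3 u hu (by linarith) φ hφ

/-- Fixed point theorem in reflexive spaces. -/
theorem fixed_of_refl [CompleteSpace X]
    (hX : Function.Surjective (NormedSpace.inclusionInDoubleDual ℝ X))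
    {C : Set X} (hne : C.Nonempty) (hcl : IsClosed C) (hcv : Convex ℝ C)
    (hb : Bornology.IsBounded C) (hinv : MapsTo T C C) (hT : NE T C) :
    ∃ x ∈ C, T x = x := by
  obtain ⟨K, hKC, hK⟩ := exists_minInv (wcpt_of_refl hX hcl hcv hb) hne hcl hcv hinv
  have hbK := hb.subset hKC
  have hd := diam_nonpos hX hK (fun a ha b hb => hT a (hKC ha) b (hKC hb)) hbK
  obtain ⟨x, hx⟩ := hK.ne
  refine ⟨x, hKC hx, ?_⟩
  have := dist_le_diam_of_mem hbK (hK.inv hx) hx
  exact dist_le_zero.1 (this.trans hd)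

end Vale.Agent.P079
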