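import Vale.Agent.P079.Basic

open Set Filter Topology Metric

namespace Vale.Agent.P079

variable {X : Type*} [NormedAddCommGroup X] [NormedSpace ℝ X]

/-- The finite weakly null tree game. -/
def Win : ℕ → List X → Prop
  | 0, S => ∃ j : X →L[ℝ] ℝ, ‖j‖ ≤ 1 ∧ ∀ u ∈ S, 1 / 4 ≤ j u
  | m + 1, S => ∀ (F : Finset (X →L[ℝ] ℝ)) (δ : ℝ), 0 < δ →
      ∃ u : X, ‖u‖ ≤ 2 ∧ (∀ f ∈ F, |f u| ≤ δ) ∧ Win m (u :: S)

lemma Win.exists_dual : ∀ {m : ℕ} {S : List X}, Win m S →
    ∃ j : X →L[ℝ] ℝ, ‖j‖ ≤ 1 ∧ ∀ u ∈ S, 1 / 4 ≤ j u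
  | 0, _, h => h
  | m + 1, S, h => by
    obtain ⟨u, -, -, hw⟩ := h ∅ 1 one_pos
    obtain ⟨j, hj, h⟩ := Win.exists_dual hw
    exact ⟨j, hj, fun v hv => h v (List.mem_cons_of_mem _ hv)⟩

lemma le_norm_of_dual {j : X →L[ℝ] ℝ} (hj : ‖j‖ ≤ 1) (x : X) : j x ≤ ‖x‖ := by
  have := j.le_opNorm x
  have h2 : ‖j‖ * ‖x‖ ≤ ‖x‖ := by nlinarith [norm_nonneg x]
  exact (le_abs_self _).trans ((Real.norm_eq_abs _).symm ▸ this.trans h2)

/-- existence of an approximate fixed point sequence with a weak limit -/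
lemma exists_afps [CompleteSpace X] {T : X → X} {K : Set X} (hK : MinInv T K) (hw : WCpt K)
    (hT : NE T K) (hb : Bornology.IsBounded K) :
    ∃ (x : ℕ → X) (y0 : X), y0 ∈ K ∧ (∀ n, x n ∈ K) ∧
      Tendsto (fun n => ‖x n - T (x n)‖) (hyperfilter ℕ) (𝓝 0) ∧
      ∀ f : X →L[ℝ] ℝ, Tendsto (fun n => f (x n)) (hyperfilter ℕ) (𝓝 (f y0)) := by
  obtain ⟨c, hc⟩ := hK.ne
  have : ∀ n : ℕ, ∃ x ∈ K, ‖x - T x‖ ≤ 1 / ((n : ℝ) + 1) := by
    intro n
    obtain ⟨R, L, h1, -, h3, -⟩ := exists_retr hK.cl hK.cv hK.inv hT hb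
      (show (0 : ℝ) < 1 / ((n : ℝ) + 1) by positivity)
    exact ⟨R c, h1 hc, h3 c hc⟩
  choose x hx hx2 using this
  obtain ⟨y0, hy0, h⟩ := hw.seq (hyperfilter ℕ) x hx
  refine ⟨x, y0, hy0, hx, ?_, h⟩
  have hU : (hyperfilter ℕ : Filter ℕ) ≤ atTop := by
    rw [← Nat.cofinite_eq_atTop]; exact hyperfilter_le_cofinite
  exact squeeze_zero (fun n => norm_nonneg _) hx2
    (tendsto_one_div_add_atTop_nhds_zero_nat.mono_left hU)

theorem win_of_minInv [CompleteSpace X] {T : X → X} {K : Set X} (hK : MinInv T K) (hw : WCpt K)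
    (hT : NE T K) (hb : Bornology.IsBounded K) (hd : 0 < diam K) (m : ℕ) :
    Win m ([] : List X) := by
  obtain ⟨x, y0, hy0, hx, hxT, hxw⟩ := exists_afps hK hw hT hb
  set d := diam K with hdd
  have hdist : ∀ a ∈ K, ∀ b ∈ K, ‖a - b‖ ≤ d := fun a ha b hb' => by
    rw [← dist_eq_norm]; exact dist_le_diam_of_mem hb ha hb'
  set τ0 : ℝ := (1 / 3) ^ m with hτ0
  have hτ0p : 0 < τ0 := by positivity
  obtain ⟨ε, hε, hgk⟩ := goebel_karlovitz hK hw hT hy0 (η := τ0 * d / 4) (by positivity)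
  obtain ⟨R, L, hRK, hRne, hRfix, hRL⟩ := exists_retr hK.cl hK.cv hK.inv hT hb hε
  have hRx : Tendsto (fun n => ‖R (x n) - x n‖) (hyperfilter ℕ) (𝓝 0) := by
    refine squeeze_zero (fun n => norm_nonneg _) (fun n => hRL _ (hx n)) ?_
    simpa using hxT.const_mul L
  have main : ∀ (k : ℕ) (c : X) (S : List X), c ∈ K → τ0 * 3 ^ k ≤ 1 →
      (∀ j : X →L[ℝ] ℝ, ‖j‖ ≤ 1 → d - τ0 * d / 4 - τ0 * 3 ^ k / 2 * d ≤ j (R c - y0) →
        ∀ u ∈ S, 1 / 4 ≤ j u) → Win k S := by
    intro k
    induction k with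
    | zero =>
      intro c S hc _ h
      obtain ⟨j, hj, hj2⟩ := exists_dual_vector'' ℝ (R c - y0)
      refine ⟨j, hj, h j hj ?_⟩
      have := hgk (R c) (hRK hc) (hRfix c hc)
      simp only [RCLike.ofReal_real_eq_id, id_eq] at hj2
      rw [hj2]
      have : 0 ≤ τ0 * 3 ^ 0 / 2 * d := by positivity
      linarith
    | succ k ih =>
      intro c S hc hk h F δ hδ
      set τ : ℝ := τ0 * 3 ^ k with hτ
      have hτp : 0 < τ := by positivity
      have hτ3 : τ0 * 3 ^ (k + 1) = 3 * τ := by rw [hτ, pow_succ]; ring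
      have hτ1 : τ ≤ 1 := by linarith
      have hτ0' : τ0 ≤ τ := by
        have : (1 : ℝ) ≤ 3 ^ k := one_le_pow₀ (by norm_num)
        rw [hτ]; nlinarith
      let cn : ℕ → X := fun n => (1 - τ) • c + τ • x n
      have hcn : ∀ n, cn n ∈ K := fun n => hK.cv hc (hx n) (by linarith) hτp.le (by ring)
      obtain ⟨z, hzK, hz⟩ := hw.seq (hyperfilter ℕ) (fun n => R (cn n)) (fun n => hRK (hcn n))
      have h1 : ∀ n, ‖R (cn n) - R c‖ ≤ τ * d := by
        intro n
        refine (hRne _ (hcn n) _ hc).trans ?_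
        have : cn n - c = τ • (x n - c) := by
          simp only [cn, smul_sub, sub_smul, one_smul]; abel
        rw [this, norm_smul, Real.norm_of_nonneg hτp.le]
        exact mul_le_mul_of_nonneg_left (hdist _ (hx n) _ hc) hτp.le
      have h2 : ‖z - R c‖ ≤ τ * d := by
        have : z ∈ closedBall (R c) (τ * d) := by
          refine mem_of_wlim (U := Filter.map (fun n => R (cn n)) (hyperfilter ℕ)) hz
            (convex_closedBall _ _) isClosed_closedBall ?_
          rw [Filter.mem_map]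
          exact Filter.univ_mem' fun n => by
            simpa [mem_closedBall, dist_eq_norm] using h1 n
        simpa [mem_closedBall, dist_eq_norm] using this
      have h3 : ∀ j : X →L[ℝ] ℝ, ‖j‖ ≤ 1 → j (z - y0) ≤ (1 - τ) * d := by
        intro j hj
        have ht1 : Tendsto (fun n => j (R (cn n)) - j (x n)) (hyperfilter ℕ) (𝓝 (j z - j y0)) :=
          (hz j).sub (hxw j)
        have ht2 : Tendsto (fun n => (1 - τ) * d + ‖R (x n) - x n‖) (hyperfilter ℕ)
            (𝓝 ((1 - τ) * d + 0)) := tendsto_const_nhds.add hRx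
        rw [map_sub, ← add_zero ((1 - τ) * d)]
        refine le_of_tendsto_of_tendsto' ht1 ht2 fun n => ?_
        rw [← map_sub]
        refine (le_norm_of_dual hj _).trans ?_
        refine (norm_sub_le_norm_sub_add_norm_sub _ (R (x n)) _).trans ?_
        gcongr
        refine (hRne _ (hcn n) _ (hx n)).trans ?_
        have : cn n - x n = (1 - τ) • (c - x n) := by
          simp only [cn, smul_sub, sub_smul, one_smul]; abel
        rw [this, norm_smul, Real.norm_of_nonneg (by linarith)]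
        exact mul_le_mul_of_nonneg_left (hdist _ hc _ (hx n)) (by linarith)
      have hτd : 0 < τ * d := by positivity
      let u : ℕ → X := fun n => (τ * d)⁻¹ • (R (cn n) - z)
      have hev : ∀ᶠ n in (hyperfilter ℕ : Filter ℕ), ∀ f ∈ F, |f (u n)| ≤ δ := by
        rw [Filter.eventually_all_finset]
        intro f _
        have : Tendsto (fun n => |f (u n)|) (hyperfilter ℕ) (𝓝 |(τ * d)⁻¹ * (f z - f z)|) := by
          refine Tendsto.abs ?_
          simp only [u, map_smul, map_sub, smul_eq_mul]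
          exact ((hz f).sub tendsto_const_nhds).const_mul _
        simp only [sub_self, mul_zero, abs_zero] at this
        exact this.eventually (ge_mem_nhds hδ)
      obtain ⟨n, hn⟩ := hev.exists
      refine ⟨u n, ?_, hn, ih (cn n) _ (hcn n) hτ1 fun j hj hj2 v hv => ?_⟩
      · simp only [u]
        rw [norm_smul, Real.norm_of_nonneg (by positivity), inv_mul_le_iff₀ hτd]
        have := norm_sub_le_norm_sub_add_norm_sub (R (cn n)) (R c) z
        rw [norm_sub_rev] at h2
        linarith [h1 n]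
      · rcases List.mem_cons.1 hv with rfl | hv
        · simp only [u, map_smul, smul_eq_mul]
          rw [le_inv_mul_iff₀ hτd]
          have e : j (R (cn n) - z) = j (R (cn n) - y0) - j (z - y0) := by
            simp only [map_sub]; ring
          have := h3 j hj
          have h4 : τ0 * d ≤ τ * d := by gcongr
          rw [e]; linarith
        · refine h j hj ?_ v hv
          have e : j (R c - y0) = j (R (cn n) - y0) - j (R (cn n) - R c) := by
            simp only [map_sub]; ring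
          have := (le_norm_of_dual hj (R (cn n) - R c)).trans (h1 n)
          rw [e, hτ3]; linarith
  refine main m y0 [] hy0 ?_ (fun j _ _ u hu => absurd hu List.not_mem_nil)
  rw [hτ0, ← mul_pow]; norm_num

/-- Fixed point theorem under failure of the game. -/
theorem fixed_of_not_win [CompleteSpace X] {m : ℕ} (hm : ¬ Win m ([] : List X))
    {C : Set X} (hC : WCpt C) (hne : C.Nonempty) (hcl : IsClosed C) (hcv : Convex ℝ C)
    (hb : Bornology.IsBounded C) {T : X → X} (hinv : MapsTo T C C) (hT : NE T C) :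
    ∃ x ∈ C, T x = x := by
  obtain ⟨K, hKC, hK⟩ := exists_minInv hC hne hcl hcv hinv
  have hbK := hb.subset hKC
  by_cases hd : 0 < diam K
  · exact absurd (win_of_minInv hK (hC.mono hKC hK.cv hK.cl)
      (fun a ha b hb => hT a (hKC ha) b (hKC hb)) hbK hd m) hm
  · obtain ⟨x, hx⟩ := hK.ne
    refine ⟨x, hKC hx, ?_⟩
    have := dist_le_diam_of_mem hbK (hK.inv hx) hx
    exact dist_le_zero.1 (this.trans (not_lt.1 hd))

end Vale.Agent.P079
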