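import Vale.Agent.P079.Dent

open Set Filter Topology Metric

namespace Vale.Agent.P079

variable {X : Type*} [NormedAddCommGroup X] [NormedSpace ℝ X]

/-- The double limit argument, as the impossibility of an endless game. -/
lemma no_game {K : Set X} (hw : WCpt K) (y0 : X) {B α β : ℝ} (hαβ : α < β)
    (Q : Set X → Set (X →L[ℝ] ℝ) → Prop) (h0 : Q ∅ ∅)
    (hs : ∀ S Φ, S.Finite → Φ.Finite → Q S Φ → ∃ (f : X →L[ℝ] ℝ) (u : X), ‖f‖ ≤ B ∧ u ∈ K ∧
      (∀ v ∈ S, β ≤ f (v - y0)) ∧ (∀ φ ∈ Φ, φ (u - y0) ≤ α) ∧ Q (insert u S) (insert f Φ)) :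
    False := by
  choose! f u hf hu h1 h2 h3 using hs
  let s : ℕ → Set X × Set (X →L[ℝ] ℝ) := fun n =>
    Nat.rec (∅, ∅) (fun _ p => (insert (u p.1 p.2) p.1, insert (f p.1 p.2) p.2)) n
  have hs0 : ∀ n, s (n + 1) = (insert (u (s n).1 (s n).2) (s n).1,
      insert (f (s n).1 (s n).2) (s n).2) := fun n => rfl
  have hinv : ∀ n, (s n).1.Finite ∧ (s n).2.Finite ∧ Q (s n).1 (s n).2 := by
    intro n
    induction n with
    | zero => exact ⟨finite_empty, finite_empty, h0⟩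
    | succ n ih =>
      rw [hs0]
      exact ⟨ih.1.insert _, ih.2.1.insert _, h3 _ _ ih.1 ih.2.1 ih.2.2⟩
  let uu : ℕ → X := fun n => u (s n).1 (s n).2
  let ff : ℕ → (X →L[ℝ] ℝ) := fun n => f (s n).1 (s n).2
  have hmem : ∀ j k, j < k → uu j ∈ (s k).1 ∧ ff j ∈ (s k).2 := by
    intro j k hjk
    induction k, hjk using Nat.le_induction with
    | base => exact ⟨mem_insert _ _, mem_insert _ _⟩
    | succ k _ ih => exact ⟨mem_insert_of_mem _ ih.1, mem_insert_of_mem _ ih.2⟩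
  have hU : (hyperfilter ℕ : Filter ℕ) ≤ atTop := by
    rw [← Nat.cofinite_eq_atTop]; exact hyperfilter_le_cofinite
  obtain ⟨z, -, hz⟩ := hw.seq (hyperfilter ℕ) uu
    (fun n => hu _ _ (hinv n).1 (hinv n).2.1 (hinv n).2.2)
  obtain ⟨ξ, -, hξ⟩ := exists_wstar_lim (hyperfilter ℕ) ff (B := B)
    (Eventually.of_forall fun n => hf _ _ (hinv n).1 (hinv n).2.1 (hinv n).2.2)
  have hz' : ∀ g : X →L[ℝ] ℝ, Tendsto (fun n => g (uu n - y0)) (hyperfilter ℕ)
      (𝓝 (g (z - y0))) := by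
    intro g
    simp only [map_sub]
    exact (hz g).sub tendsto_const_nhds
  have a1 : ∀ j, β ≤ ξ (uu j - y0) := by
    intro j
    refine ge_of_tendsto (hξ _) (hU ?_)
    filter_upwards [eventually_gt_atTop j] with k hk
    exact h1 _ _ (hinv k).1 (hinv k).2.1 (hinv k).2.2 _ (hmem j k hk).1
  have a2 : ∀ j, ff j (z - y0) ≤ α := by
    intro j
    refine le_of_tendsto (hz' _) (hU ?_)
    filter_upwards [eventually_gt_atTop j] with k hk
    exact h2 _ _ (hinv k).1 (hinv k).2.1 (hinv k).2.2 _ (hmem j k hk).2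
  have b1 : β ≤ ξ (z - y0) := ge_of_tendsto' (hz' ξ) a1
  have b2 : ξ (z - y0) ≤ α := le_of_tendsto' (hξ _) a2
  linarith

/-- An adaptive form of Mazur's lemma. -/
lemma mazur_game {K : Set X} (hw : WCpt K) {U : Filter ℕ} [U.NeBot] {x : ℕ → X}
    (hx : ∀ n, x n ∈ K) {y0 : X} (hy : ∀ f : X →L[ℝ] ℝ, Tendsto (fun n => f (x n)) U (𝓝 (f y0)))
    (P : Set X → Prop) (h0 : P ∅) (hs : ∀ S, S.Finite → P S → ∀ᶠ n in U, P (insert (x n) S))
    {ε : ℝ} (hε : 0 < ε) : ∃ S, P S ∧ ∃ w ∈ convexHull ℝ S, ‖w - y0‖ < ε := by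
  by_contra hcon
  push Not at hcon
  refine no_game hw y0 (B := 2 / ε) (show (1 / 2 : ℝ) < 1 by norm_num) (fun S _ => P S) h0 ?_
  intro S Φ hS hΦ hP
  obtain ⟨f, γ, hf1, hf2⟩ := geometric_hahn_banach_open (convex_ball y0 ε) isOpen_ball
    (convex_convexHull ℝ S) (by
      rw [Set.disjoint_left]
      intro w hw1 hw2
      have := hcon S hP w hw2
      rw [mem_ball, dist_eq_norm] at hw1
      linarith)
  have hγ : 0 < γ - f y0 := sub_pos.2 (hf1 y0 (mem_ball_self hε))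
  have hev : ∀ᶠ n in U, ∀ φ ∈ Φ, φ (x n - y0) ≤ 1 / 2 := by
    rw [Filter.eventually_all_finite hΦ]
    intro φ _
    have : Tendsto (fun n => φ (x n - y0)) U (𝓝 (φ y0 - φ y0)) := by
      simp only [map_sub]
      exact (hy φ).sub tendsto_const_nhds
    exact this.eventually (ge_mem_nhds (by simp))
  obtain ⟨n, hn1, hn2⟩ := (hev.and (hs S hS hP)).exists
  refine ⟨(γ - f y0)⁻¹ • f, x n, ?_, hx n, fun v hv => ?_, hn1, hn2⟩
  · refine ContinuousLinearMap.opNorm_le_of_shell hε (by positivity) (c := (2 : ℝ))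
      (by norm_num) fun v hv1 hv2 => ?_
    have e1 := hf1 (y0 + v) (by simpa using hv2)
    have e2 := hf1 (y0 - v) (by simpa using hv2)
    rw [map_add] at e1
    rw [map_sub] at e2
    have e3 : ‖((γ - f y0)⁻¹ • f) v‖ ≤ 1 := by
      rw [ContinuousLinearMap.smul_apply, smul_eq_mul, Real.norm_eq_abs, abs_mul,
        abs_of_pos (inv_pos.2 hγ), inv_mul_le_iff₀ hγ, abs_le]
      constructor <;> linarith
    refine e3.trans ?_
    rw [div_mul_eq_mul_div, le_div_iff₀ hε]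
    rw [Real.norm_ofNat, div_le_iff₀ (by norm_num)] at hv1
    linarith
  · have := hf2 v (subset_convexHull ℝ S hv)
    rw [ContinuousLinearMap.smul_apply, smul_eq_mul, le_inv_mul_iff₀ hγ, map_sub]
    linarith

/-- One point of `K` controls finitely many. -/
lemma exists_center {K : Set X} (hne : K.Nonempty) (hcv : Convex ℝ K) {d : ℝ}
    (hd : ∀ a ∈ K, ∀ b ∈ K, ‖a - b‖ ≤ d) {t : Set X} (ht : t.Finite) (htK : t ⊆ K) :
    ∃ w0 ∈ K, ∃ m > (0 : ℝ), ∀ g : X →L[ℝ] ℝ, ‖g‖ ≤ 1 → ∀ u ∈ K, ∀ w ∈ t,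
      d - g (u - w) ≤ m * (d - g (u - w0)) := by
  induction t, ht using Set.Finite.induction_on with
  | empty =>
    obtain ⟨w, hw⟩ := hne
    exact ⟨w, hw, 1, one_pos, fun g _ u _ w hw => absurd hw (notMem_empty _)⟩
  | @insert a t _ _ ih =>
    obtain ⟨w0, hw0, m, hm, h⟩ := ih ((subset_insert _ _).trans htK)
    have ha : a ∈ K := htK (mem_insert _ _)
    refine ⟨(1 / 2 : ℝ) • w0 + (1 / 2 : ℝ) • a, hcv hw0 ha (by norm_num) (by norm_num)
      (by norm_num), 2 * m + 2, by positivity, fun g hg u hu w hw => ?_⟩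
    have e1 := (le_norm_of_dual hg (u - w0)).trans (hd u hu w0 hw0)
    have e2 := (le_norm_of_dual hg (u - a)).trans (hd u hu a ha)
    have e3 : d - g (u - ((1 / 2 : ℝ) • w0 + (1 / 2 : ℝ) • a)) =
        (d - g (u - w0)) / 2 + (d - g (u - a)) / 2 := by
      simp only [map_sub, map_add, map_smul, smul_eq_mul]; ring
    rw [e3]
    rcases hw with rfl | hw
    · nlinarith
    · have := h g hg u hu w hw
      nlinarith

/-- admissible contractions -/
structure Good (T : X → X) (K : Set X) (Θ : X → X) (c : ℝ) : Prop where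
  pos : 0 < c
  maps : MapsTo Θ K K
  lip : ∀ a ∈ K, ∀ b ∈ K, ‖Θ a - Θ b‖ ≤ c * ‖a - b‖
  near : ∃ N : ℝ, ∀ z ∈ K, ∀ u ∈ K,
    ‖Θ z - u‖ ≤ (1 - c) * diam K + c * ‖z - u‖ + N * ‖u - T u‖

/-- upper bounds for the gauge -/
def Le (T : X → X) (K : Set X) (G : X →L[ℝ] ℝ) (a b : X) (r : ℝ) : Prop :=
  ∀ Θ c, Good T K Θ c → G (Θ a - Θ b) ≤ c * r

variable {T : X → X} {K : Set X}

lemma good_id : Good T K id 1 :=
  ⟨one_pos, mapsTo_id K, fun a _ b _ => by simp, ⟨0, fun z _ u _ => by simp⟩⟩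

lemma Le.tri {G : X →L[ℝ] ℝ} {a b e : X} {r s : ℝ} (h1 : Le T K G a b r) (h2 : Le T K G b e s) :
    Le T K G a e (r + s) := by
  intro Θ c h
  have e1 := h1 Θ c h
  have e2 := h2 Θ c h
  simp only [map_sub] at *
  linarith

lemma le_norm (G : X →L[ℝ] ℝ) {a b : X} (ha : a ∈ K) (hb : b ∈ K) :
    Le T K G a b (‖G‖ * ‖a - b‖) := by
  intro Θ c h
  have e1 := (le_abs_self _).trans (G.le_opNorm (Θ a - Θ b))
  have e2 := h.lip a ha b hb
  have := mul_le_mul_of_nonneg_left e2 (norm_nonneg G)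
  linarith

lemma Le.map {G : X →L[ℝ] ℝ} (hinv : MapsTo T K K) (hT : NE T K) {a b : X} {r : ℝ}
    (h1 : Le T K G a b r) : Le T K G (T a) (T b) r := by
  intro Θ c h
  refine h1 (Θ ∘ T) c ⟨h.pos, h.maps.comp hinv, fun a ha b hb => ?_, ?_⟩
  · exact (h.lip _ (hinv ha) _ (hinv hb)).trans
      (mul_le_mul_of_nonneg_left (hT a ha b hb) h.pos.le)
  · obtain ⟨N, hN⟩ := h.near
    refine ⟨N + c, fun z hz u hu => ?_⟩
    have e1 := hN (T z) (hinv hz) u hu
    have e2 := norm_sub_le_norm_sub_add_norm_sub (T z) (T u) u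
    have e3 := hT z hz u hu
    rw [norm_sub_rev (T u) u] at e2
    have e4 : c * ‖T z - u‖ ≤ c * (‖z - u‖ + ‖u - T u‖) :=
      mul_le_mul_of_nonneg_left (by linarith) h.pos.le
    simp only [Function.comp]
    linarith

lemma Le.scal {G : X →L[ℝ] ℝ} (hcv : Convex ℝ K) (hb : Bornology.IsBounded K) {a b y : X}
    {r s t : ℝ} (hy : y ∈ K) (hs : 0 ≤ s) (ht : 0 ≤ t) (hst : s + t = 1) (h1 : Le T K G a b r) :
    Le T K G (s • y + t • a) (s • y + t • b) (t * r) := by
  intro Θ c h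
  rcases ht.eq_or_lt with rfl | ht'
  · simp
  have hm : MapsTo (fun w => s • y + t • w) K K := fun w hw => hcv hy hw hs ht hst
  have := h1 (Θ ∘ fun w => s • y + t • w) (c * t) ⟨mul_pos h.pos ht', h.maps.comp hm,
    fun a ha b hb => ?_, ?_⟩
  · simpa [mul_assoc] using this
  · refine (h.lip _ (hm ha) _ (hm hb)).trans (le_of_eq ?_)
    have : s • y + t • a - (s • y + t • b) = t • (a - b) := by rw [smul_sub]; abel
    simp only [this, norm_smul, Real.norm_of_nonneg ht]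
    ring
  · obtain ⟨N, hN⟩ := h.near
    refine ⟨N, fun z hz u hu => ?_⟩
    have e1 := hN _ (hm hz) u hu
    have e2 : s • y + t • z - u = s • (y - u) + t • (z - u) := by
      rw [smul_sub, smul_sub]
      have : u = s • u + t • u := by rw [← add_smul, hst, one_smul]
      conv_lhs => rw [this]
      abel
    have e3 : ‖y - u‖ ≤ diam K := by
      rw [← dist_eq_norm]; exact dist_le_diam_of_mem hb hy hu
    have e4 : ‖s • y + t • z - u‖ ≤ s * diam K + t * ‖z - u‖ := by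
      rw [e2]
      refine (norm_add_le _ _).trans ?_
      rw [norm_smul, norm_smul, Real.norm_of_nonneg hs, Real.norm_of_nonneg ht]
      gcongr
    have e5 := mul_le_mul_of_nonneg_left e4 h.pos.le
    have e6 : s = 1 - t := by linarith
    simp only [Function.comp] at e1 ⊢
    rw [e6] at e5 e1 ⊢
    nlinarith

lemma Le.of_forall {G : X →L[ℝ] ℝ} {a b : X} {r : ℝ} (h : ∀ η > 0, Le T K G a b (r + η)) :
    Le T K G a b r := by
  intro Θ c hc
  refine le_of_forall_pos_le_add fun η hη => ?_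
  have := h (η / c) (div_pos hη hc.pos) Θ c hc
  rwa [mul_add, mul_div_cancel₀ _ hc.pos.ne'] at this

lemma Le.mono {G : X →L[ℝ] ℝ} {a b : X} {r s : ℝ} (h : Le T K G a b r) (hrs : r ≤ s) :
    Le T K G a b s := fun Θ c hc =>
  (h Θ c hc).trans (mul_le_mul_of_nonneg_left hrs hc.pos.le)

lemma Le.comb {G : X →L[ℝ] ℝ} (hcv : Convex ℝ K) (hb : Bornology.IsBounded K) {a b a' b' : X}
    {r s t : ℝ} (hb0 : b ∈ K) (ha' : a' ∈ K) (hs : 0 ≤ s) (ht : 0 ≤ t) (hst : s + t = 1)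
    (h1 : Le T K G a b r) (h2 : Le T K G a' b' r) :
    Le T K G (s • a + t • a') (s • b + t • b') r := by
  have e1 := h1.scal hcv hb ha' ht hs (by linarith)
  have e2 := h2.scal hcv hb hb0 hs ht hst
  rw [add_comm (t • a'), add_comm (t • a')] at e1
  have := e1.tri e2
  rwa [← add_mul, hst, one_mul] at this

/-- By minimality the gauge radius does not depend on the centre. -/
lemma le_all (hK : MinInv T K) (hT : NE T K) (hb : Bornology.IsBounded K) {G : X →L[ℝ] ℝ}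
    {r : ℝ} {y0 : X} (hy0 : y0 ∈ K) (h : ∀ a ∈ K, Le T K G a y0 r) :
    ∀ a ∈ K, ∀ b ∈ K, Le T K G a b r := by
  have hsmall : ∀ η > 0, ∀ a b : X, dist a b < η / (‖G‖ + 1) → ‖G‖ * ‖a - b‖ ≤ η := by
    intro η hη a b hab
    rw [dist_eq_norm, lt_div_iff₀ (by positivity)] at hab
    nlinarith [norm_nonneg (a - b)]
  have hY : {y | y ∈ K ∧ ∀ a ∈ K, Le T K G a y r} = K := by
    refine hK.min _ (fun y hy => hy.1) ⟨y0, hy0, h⟩ ?_ ?_ ?_
    · refine isClosed_of_closure_subset fun y hy => ?_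
      have hyK : y ∈ K := hK.cl.closure_subset (closure_mono (fun y hy => hy.1) hy)
      refine ⟨hyK, fun a ha => Le.of_forall fun η hη => ?_⟩
      obtain ⟨y', hy', hd⟩ := Metric.mem_closure_iff.1 hy (η / (‖G‖ + 1)) (by positivity)
      rw [dist_comm] at hd
      exact (hy'.2 a ha).tri ((le_norm G hy'.1 hyK).mono (hsmall η hη _ _ hd))
    · intro y hy y' hy' s t hs ht hst
      refine ⟨hK.cv hy.1 hy'.1 hs ht hst, fun a ha => ?_⟩
      have := Le.comb hK.cv hb hy.1 ha hs ht hst (hy.2 a ha) (hy'.2 a ha)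
      rwa [← add_smul, hst, one_smul] at this
    · intro y hy
      refine ⟨hK.inv hy.1, ?_⟩
      have hA : {a | a ∈ K ∧ Le T K G a (T y) r} = K := by
        refine hK.min _ (fun a ha => ha.1)
          ⟨T y0, hK.inv hy0, (hy.2 y0 hy0).map hK.inv hT⟩ ?_ ?_ ?_
        · refine isClosed_of_closure_subset fun a ha => ?_
          have haK : a ∈ K := hK.cl.closure_subset (closure_mono (fun y hy => hy.1) ha)
          refine ⟨haK, Le.of_forall fun η hη => ?_⟩
          obtain ⟨a', ha', hd⟩ := Metric.mem_closure_iff.1 ha (η / (‖G‖ + 1)) (by positivity)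
          rw [add_comm]
          exact ((le_norm G haK ha'.1).mono (hsmall η hη _ _ hd)).tri ha'.2
        · intro a ha a' ha' s t hs ht hst
          refine ⟨hK.cv ha.1 ha'.1 hs ht hst, ?_⟩
          have := Le.comb hK.cv hb (hK.inv hy.1) ha'.1 hs ht hst ha.2 ha'.2
          rwa [← add_smul, hst, one_smul] at this
        · intro a ha
          exact ⟨hK.inv ha.1, (hy.2 a ha.1).map hK.inv hT⟩
      intro a ha
      have : a ∈ {a | a ∈ K ∧ Le T K G a (T y) r} := hA.symm ▸ ha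
      exact this.2
  intro a ha b hb'
  have : b ∈ {y | y ∈ K ∧ ∀ a ∈ K, Le T K G a y r} := hY.symm ▸ hb'
  exact this.2 a ha

end Vale.Agent.P079
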