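import Vale.Agent.P079.Game

open Set Filter Topology Metric

namespace Vale.Agent.P079

lemma uc_scaled (Y : Type*) [NormedAddCommGroup Y] [NormedSpace ℝ Y] [UniformConvexSpace Y]
    {ε M : ℝ} (hε : 0 < ε) (hM : 0 < M) :
    ∃ δ > 0, ∀ ρ : ℝ, ρ ≤ M → ∀ x y : Y, ‖x‖ ≤ ρ → ‖y‖ ≤ ρ → ε ≤ ‖x - y‖ →
      ‖x + y‖ ≤ (2 - δ) * ρ := by
  obtain ⟨δ, hδ, h⟩ := exists_forall_closed_ball_dist_add_le_two_sub Y (div_pos hε hM)
  refine ⟨δ, hδ, fun ρ hρ x y hx hy hxy => ?_⟩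
  have hρ0 : 0 < ρ := by
    have := norm_sub_le x y
    linarith
  have h1 : ‖ρ⁻¹ • x‖ ≤ 1 := by
    rw [norm_smul, Real.norm_of_nonneg (by positivity), inv_mul_le_iff₀ hρ0]; linarith
  have h2 : ‖ρ⁻¹ • y‖ ≤ 1 := by
    rw [norm_smul, Real.norm_of_nonneg (by positivity), inv_mul_le_iff₀ hρ0]; linarith
  have h3 : ε / M ≤ ‖ρ⁻¹ • x - ρ⁻¹ • y‖ := by
    rw [← smul_sub, norm_smul, Real.norm_of_nonneg (by positivity), le_inv_mul_iff₀ hρ0]
    calc ρ * (ε / M) ≤ M * (ε / M) := by gcongr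
      _ = ε := by field_simp
      _ ≤ _ := hxy
  have h4 := h h1 h2 h3
  rw [← smul_add, norm_smul, Real.norm_of_nonneg (by positivity), inv_mul_le_iff₀ hρ0] at h4
  linarith

variable {X Y : Type*} [NormedAddCommGroup X] [NormedSpace ℝ X]
  [NormedAddCommGroup Y] [NormedSpace ℝ Y] [UniformConvexSpace Y]

lemma wcpt_of_uc [CompleteSpace X] (e : X ≃L[ℝ] Y) {C : Set X} (hcl : IsClosed C)
    (hcv : Convex ℝ C) (hb : Bornology.IsBounded C) : WCpt C := by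
  intro U hU
  obtain ⟨B, hB⟩ := hb.exists_norm_le
  let 𝒟 : Set (Set X) := {D | D ∈ U ∧ IsClosed D ∧ Convex ℝ D ∧ D ⊆ C}
  have hC𝒟 : C ∈ 𝒟 := ⟨hU, hcl, hcv, le_rfl⟩
  have hne : ∀ D ∈ 𝒟, D.Nonempty := fun D hD => Ultrafilter.nonempty_of_mem hD.1
  have hinter : ∀ D ∈ 𝒟, ∀ D' ∈ 𝒟, D ∩ D' ∈ 𝒟 := fun D hD D' hD' =>
    ⟨inter_mem hD.1 hD'.1, hD.2.1.inter hD'.2.1, hD.2.2.1.inter hD'.2.2.1,
      inter_subset_left.trans hD.2.2.2⟩
  let A : Set ℝ := {s | ∃ D ∈ 𝒟, ∀ x ∈ D, s ≤ ‖e x‖}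
  have hAne : A.Nonempty := ⟨0, C, hC𝒟, fun x _ => norm_nonneg _⟩
  have hAb : BddAbove A := by
    refine ⟨‖(e : X →L[ℝ] Y)‖ * B, fun s ⟨D, hD, hs⟩ => ?_⟩
    obtain ⟨x, hx⟩ := hne D hD
    refine (hs x hx).trans (((e : X →L[ℝ] Y).le_opNorm x).trans ?_)
    exact mul_le_mul_of_nonneg_left (hB x (hD.2.2.2 hx)) (norm_nonneg _)
  set r := sSup A with hr
  have hr0 : 0 ≤ r := le_csSup hAb ⟨C, hC𝒟, fun x _ => norm_nonneg _⟩
  have hsmall : ∀ D ∈ 𝒟, ∀ η > 0, ∃ x ∈ D, ‖e x‖ ≤ r + η := by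
    intro D hD η hη
    by_contra hcon
    push Not at hcon
    have : r + η ≤ r := le_csSup hAb ⟨D, hD, fun x hx => (hcon x hx).le⟩
    linarith
  have hbig : ∀ η > 0, ∃ D ∈ 𝒟, ∀ x ∈ D, r - η ≤ ‖e x‖ := by
    intro η hη
    obtain ⟨s, ⟨D, hD, hs⟩, hlt⟩ := exists_lt_of_lt_csSup hAne (show r - η < r by linarith)
    exact ⟨D, hD, fun x hx => hlt.le.trans (hs x hx)⟩
  have key : ∀ ε > 0, ∃ η0 > 0, ∀ η, 0 < η → η ≤ η0 → ∀ D ∈ 𝒟, (∀ x ∈ D, r - η ≤ ‖e x‖) →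
      ∀ x ∈ D, ∀ y ∈ D, ‖e x‖ ≤ r + η → ‖e y‖ ≤ r + η → dist x y < ε := by
    intro ε hε
    set N := ‖(e.symm : Y →L[ℝ] X)‖ + 1 with hN
    have hNp : 0 < N := by positivity
    obtain ⟨δ, hδ, h⟩ := uc_scaled Y (div_pos hε hNp) (show 0 < r + 1 by linarith)
    refine ⟨min 1 (δ * (ε / N) / 9), by positivity, fun η hη hη0 D hD hlow x hx y hy h1 h2 => ?_⟩
    have hη1 : η ≤ 1 := hη0.trans (min_le_left _ _)
    have hη2 : η ≤ δ * (ε / N) / 9 := hη0.trans (min_le_right _ _)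
    have hlt : ‖e x - e y‖ < ε / N := by
      by_contra hcon
      push Not at hcon
      have h3 := h (r + η) (by linarith) _ _ h1 h2 hcon
      have hcvD : Convex ℝ D := hD.2.2.1
      have h4 := hlow ((1 / 2 : ℝ) • x + (1 / 2 : ℝ) • y) (hcvD hx hy (by norm_num) (by norm_num)
        (by norm_num))
      rw [← smul_add, map_smul, map_add, norm_smul, Real.norm_of_nonneg (by norm_num)] at h4
      have h5 : ε / N ≤ 2 * (r + η) := by
        have := norm_sub_le (e x) (e y); linarith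
      have h6 : 0 < δ * (ε / N) := by positivity
      nlinarith
    rw [dist_eq_norm]
    have : x - y = (e.symm : Y →L[ℝ] X) (e x - e y) := by simp
    rw [this]
    refine ((e.symm : Y →L[ℝ] X).le_opNorm _).trans_lt ?_
    rw [lt_div_iff₀ hNp] at hlt
    have := norm_nonneg (e x - e y)
    nlinarith
  have hpos : ∀ n : ℕ, (0 : ℝ) < 1 / ((n : ℝ) + 1) := fun n => by positivity
  choose Dn hDn hDn2 using fun n : ℕ => hbig _ (hpos n)
  choose x hx hx2 using fun n : ℕ => hsmall _ (hDn n) _ (hpos n)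
  have hev : ∀ η0 > (0 : ℝ), ∃ N : ℕ, ∀ n ≥ N, 1 / ((n : ℝ) + 1) ≤ η0 := fun η0 h =>
    eventually_atTop.1 (tendsto_one_div_add_atTop_nhds_zero_nat.eventually (ge_mem_nhds h))
  have hcauchy : CauchySeq x := by
    rw [Metric.cauchySeq_iff]
    intro ε hε
    obtain ⟨η0, hη0, h⟩ := key (ε / 2) (by linarith)
    obtain ⟨N, hN⟩ := hev η0 hη0
    refine ⟨N, fun m hm n hn => ?_⟩
    obtain ⟨w, hw, hw2⟩ := hsmall _ (hinter _ (hDn m) _ (hDn n)) _ (lt_min (hpos m) (hpos n))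
    have h1 := h _ (hpos m) (hN m hm) _ (hDn m) (hDn2 m) _ (hx m) w hw.1 (hx2 m)
      (hw2.trans (by gcongr; exact min_le_left _ _))
    have h2 := h _ (hpos n) (hN n hn) _ (hDn n) (hDn2 n) _ (hx n) w hw.2 (hx2 n)
      (hw2.trans (by gcongr; exact min_le_right _ _))
    have := dist_triangle_right (x m) (x n) w
    linarith
  obtain ⟨z, hz⟩ := cauchySeq_tendsto_of_complete hcauchy
  have hzD : ∀ D ∈ 𝒟, z ∈ D := by
    intro D hD
    refine hD.2.1.closure_subset (Metric.mem_closure_iff.2 fun ε hε => ?_)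
    obtain ⟨η0, hη0, h⟩ := key (ε / 2) (by linarith)
    obtain ⟨N, hN⟩ := hev η0 hη0
    obtain ⟨N', hN'⟩ := Metric.tendsto_atTop.1 hz (ε / 2) (by linarith)
    let n := max N N'
    obtain ⟨w, hw, hw2⟩ := hsmall _ (hinter _ (hDn n) _ hD) _ (hpos n)
    have h1 := h _ (hpos n) (hN n (le_max_left _ _)) _ (hDn n) (hDn2 n) _ (hx n) w hw.1 (hx2 n) hw2
    refine ⟨w, hw.2, ?_⟩
    have := dist_triangle_left z w (x n)
    have h2 := hN' n (le_max_right _ _)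
    linarith
  refine ⟨z, hzD C hC𝒟, fun f => ?_⟩
  have hcpt : IsCompact (closedBall (0 : ℝ) (‖f‖ * B)) := isCompact_closedBall _ _
  obtain ⟨L, -, hL⟩ := hcpt.ultrafilter_le_nhds (U.map f) (by
    rw [le_principal_iff, Ultrafilter.mem_coe, Ultrafilter.mem_map]
    refine mem_of_superset hU fun y hy => ?_
    simp only [mem_preimage, mem_closedBall, dist_zero_right]
    exact (f.le_opNorm y).trans (mul_le_mul_of_nonneg_left (hB y hy) (norm_nonneg _)))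
  have hL' : Tendsto f U (𝓝 L) := hL
  have : f z = L := by
    refine eq_of_forall_dist_le fun ε hε => ?_
    have hD : C ∩ f ⁻¹' closedBall L ε ∈ 𝒟 :=
      ⟨inter_mem hU (hL' (closedBall_mem_nhds L hε)),
        hcl.inter (isClosed_closedBall.preimage f.continuous),
        hcv.inter ((convex_closedBall L ε).linear_preimage (f : X →ₗ[ℝ] ℝ)), inter_subset_left⟩
    exact (hzD _ hD).2
  rw [this]; exact hL'

lemma not_win_of_uc (e : X ≃L[ℝ] Y) : ∃ m, ¬ Win m ([] : List X) := by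
  classical
  set N := ‖(e.symm : Y →L[ℝ] X)‖ + 1 with hN
  have hNp : 0 < N := by positivity
  have hle : ∀ v : X, ‖v‖ ≤ N * ‖e v‖ := by
    intro v
    have : v = (e.symm : Y →L[ℝ] X) (e v) := by simp
    conv_lhs => rw [this]
    refine ((e.symm : Y →L[ℝ] X).le_opNorm _).trans ?_
    have := norm_nonneg (e v)
    nlinarith
  set M := 2 * ‖(e : X →L[ℝ] Y)‖ + 1 with hM
  have hMp : 0 < M := by positivity
  obtain ⟨δ0, hδ0, huc0⟩ := uc_scaled Y (show 0 < 1 / (8 * N) by positivity) hMp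
  set q : ℝ := 1 - min δ0 1 / 2 with hq
  have hq0 : 0 < q := by have := min_le_right δ0 1; linarith
  have hq1 : q < 1 := by have := lt_min hδ0 one_pos; linarith
  have huc : ∀ ρ : ℝ, 0 ≤ ρ → ρ ≤ M → ∀ x y : Y, ‖x‖ ≤ ρ → ‖y‖ ≤ ρ → 1 / (8 * N) ≤ ‖x - y‖ →
      ‖x + y‖ ≤ 2 * q * ρ := by
    intro ρ h0 h1 x y hx hy hxy
    refine (huc0 ρ h1 x y hx hy hxy).trans ?_
    have := min_le_left δ0 1
    gcongr
    linarith
  have main : ∀ (d k : ℕ) (S : List X), Win (k + 2 ^ d) S →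
      ∀ (F : Finset (X →L[ℝ] ℝ)) (δ : ℝ), 0 < δ → ∃ (L : List X) (a : X), Win k (L ++ S) ∧
        (∀ j : X →L[ℝ] ℝ, (∀ u ∈ L, 1 / 4 ≤ j u) → 1 / 4 ≤ j a) ∧ (∀ f ∈ F, |f a| ≤ δ) ∧
        ‖e a‖ ≤ q ^ d * M := by
    intro d
    induction d with
    | zero =>
      intro k S h F δ hδ
      obtain ⟨u, hu, hF, hw⟩ := h F δ hδ
      refine ⟨[u], u, hw, fun j hj => hj u (by simp), hF, ?_⟩
      have := (e : X →L[ℝ] Y).le_opNorm u
      simp only [ContinuousLinearEquiv.coe_coe] at this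
      have h2 := norm_nonneg (e : X →L[ℝ] Y)
      rw [pow_zero, one_mul]; nlinarith
    | succ d ih =>
      intro k S h F δ hδ
      have e1 : k + 2 ^ (d + 1) = (k + 2 ^ d) + 2 ^ d := by ring
      rw [e1] at h
      obtain ⟨L1, a1, hw1, hj1, hF1, hn1⟩ := ih _ S h F δ hδ
      obtain ⟨ξ, hξ, hξ2⟩ := hw1.exists_dual
      obtain ⟨L2, a2, hw2, hj2, hF2, hn2⟩ := ih _ _ hw1 (insert ξ F) (min δ (1 / 8))
        (lt_min hδ (by norm_num))
      refine ⟨L2 ++ L1, (1 / 2 : ℝ) • (a1 + a2), by rwa [List.append_assoc], fun j hj => ?_,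
        fun f hf => ?_, ?_⟩
      · have h1 := hj1 j fun u hu => hj u (List.mem_append_right _ hu)
        have h2 := hj2 j fun u hu => hj u (List.mem_append_left _ hu)
        rw [map_smul, map_add, smul_eq_mul]; linarith
      · have h1 := hF1 f hf
        have h2 := (hF2 f (Finset.mem_insert_of_mem hf)).trans (min_le_left _ _)
        rw [map_smul, map_add, smul_eq_mul, abs_mul, abs_of_pos (by norm_num : (0 : ℝ) < 1 / 2)]
        have := abs_add_le (f a1) (f a2)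
        linarith
      · have h1 := hj1 ξ fun u hu => hξ2 u (List.mem_append_left _ hu)
        have h2 := (hF2 ξ (Finset.mem_insert_self _ _)).trans (min_le_right _ _)
        have h3 : 1 / 8 ≤ ‖a1 - a2‖ := by
          refine le_trans ?_ (le_norm_of_dual hξ _)
          rw [map_sub]; linarith [le_abs_self (ξ a2)]
        have h4 : 1 / (8 * N) ≤ ‖e a1 - e a2‖ := by
          rw [← map_sub, div_le_iff₀ (by positivity)]
          have := hle (a1 - a2); linarith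
        have hqd : q ^ d ≤ 1 := pow_le_one₀ hq0.le hq1.le
        have h5 := huc (q ^ d * M) (by positivity) (by nlinarith) _ _ hn1 hn2 h4
        rw [map_smul, map_add, norm_smul, Real.norm_of_nonneg (by norm_num), pow_succ]
        linarith
  obtain ⟨d, hd⟩ := exists_pow_lt_of_lt_one (show 0 < 1 / (4 * N * M) by positivity) hq1
  refine ⟨0 + 2 ^ d, fun h => ?_⟩
  obtain ⟨L, a, hw, hj, -, hn⟩ := main d 0 [] h ∅ 1 one_pos
  obtain ⟨j, hj1, hj2⟩ := hw.exists_dual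
  have h1 := hj j fun u hu => hj2 u (List.mem_append_left _ hu)
  have h2 := (le_norm_of_dual hj1 a).trans (hle a)
  rw [lt_div_iff₀ (by positivity)] at hd
  have h3 : N * ‖e a‖ ≤ N * (q ^ d * M) := by gcongr
  nlinarith

end Vale.Agent.P079
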